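import Vale.Agent.P224.R2.H389.NumAB
import Vale.Agent.P224.R2.H389.CA.Id
import Vale.Agent.P224.R2.H389.CB.Id
import Vale.Agent.P224.PU.U1413.MainU

/-!
**The far range.** A closed minimal hypersurface of the sphere with volume at most `1.4352 |S ^ m|`
has a mean normal of norm less than `1 / 8`.
-/

namespace Vale.Agent.P224.R2.H389

open MeasureTheory Set Filter Function Module Vale.Agent.P224 Vale.Agent.P224.UE
open Vale.Agent.P224.UG Vale.Agent.P224.POS Vale.Agent.P224.PU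
open scoped Topology RealInnerProductSpace ENNReal ContDiff Manifold

noncomputable section

section

variable {V W M : Type*} [NormedAddCommGroup V] [InnerProductSpace ℝ V] [FiniteDimensional ℝ V]
  [NormedAddCommGroup W] [InnerProductSpace ℝ W] [FiniteDimensional ℝ W]
  [TopologicalSpace M] [ChartedSpace V M]
  [MeasurableSpace V] [BorelSpace V] [MeasurableSpace M] [BorelSpace M]
  [IsManifold 𝓘(ℝ, V) ∞ M] [CompactSpace M] [T2Space M] [ConnectedSpace M]
  [MeasurableSpace W] [BorelSpace W]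

/-- The law of a certificate with a unit vector on a minimal hypersurface: the contradiction. -/
theorem far_of_cert (hm : 2 ≤ finrank ℝ V) (hW : finrank ℝ W = finrank ℝ V + 2)
    {F : M → W} (hF : SphImm V F) (hmin : ∀ x n, IsUnitNormal V F x n → meanCurv V F x n = 0)
    {N : M → W} (hNs : ContMDiff 𝓘(ℝ, V) 𝓘(ℝ, W) ∞ N) (hN : ∀ x, IsUnitNormal V F x (N x))
    (hinj : Injective F) {e : W}
    (he : (volM V F).real univ • e = ∫ x, N x ∂(volM V F)) (he0 : e ≠ 0)
    (hA : 0 < (volM V F).real univ) {D : ℤ} {L : List KT} (hok : okK L = true)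
    (hl : l0 L = true)
    (hpos : ∀ T ∈ Ioo (0 : ℝ) 1, ∀ N w e : W, ‖N‖ = 1 → ‖w‖ = 1 → ‖e‖ = 1 → ∀ P Q Z Ξ : ℝ,
      Dsum (certK D L) T ![P, Q, ⟪N, w⟫, ⟪N, e⟫, ⟪w, e⟫, Z, Ξ, ⟪e, e⟫]
        + Dsum (certK D L) T (sw8 T ![P, Q, ⟪N, w⟫, ⟪N, e⟫, ⟪w, e⟫, Z, Ξ, ⟪e, e⟫]) ≤ 0)
    (hnum : ∀ q : ℝ, ‖e‖ ^ 2 ≤ q → q ≤ 1 →
      (volM V F).real univ / sphereVol (finrank ℝ V) * H0 D L ‖e‖ q < H1 D L ‖e‖ q) :
    False := by
  have hm0 : 0 < finrank ℝ V := by omega
  have hfin : IsFiniteMeasure (volM V F) := isFiniteMeasure_volM hF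
  obtain ⟨B, hE⟩ := embD_of_inj hm0 hW hF hmin hNs hN hinj
  have hG := gc_cone hW (by omega) hF hmin hNs hN
  have hS0 : 0 < sphereVol (finrank ℝ V) := sphereVol_pos' _
  obtain ⟨q, hq1, hq2, hq3⟩ := law_F hE (by omega) hG he hA he0 hok hl hpos
  have h1 := hnum q hq1 hq2
  rw [div_mul_eq_mul_div, div_lt_iff₀ hS0] at h1
  linarith

/-- **The far range**, with the bounds of the volume and of the integral of the normal as
hypotheses. -/
theorem far_aux (hm : 2 ≤ finrank ℝ V) (hW : finrank ℝ W = finrank ℝ V + 2)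
    {F : M → W} (hF : SphImm V F) (hmin : ∀ x n, IsUnitNormal V F x n → meanCurv V F x n = 0)
    {N : M → W} (hNs : ContMDiff 𝓘(ℝ, V) 𝓘(ℝ, W) ∞ N) (hN : ∀ x, IsUnitNormal V F x (N x))
    (hinj : Injective F) (htop : ‖∫ x, N x ∂(volM V F)‖ ≤ sphereVol (finrank ℝ V)) {e : W}
    (he : (volM V F).real univ • e = ∫ x, N x ∂(volM V F))
    (hlo : 1413 / 1000 * sphereVol (finrank ℝ V) ≤ (volM V F).real univ)
    (hhi : (volM V F).real univ ≤ 14352 / 10000 * sphereVol (finrank ℝ V)) : ‖e‖ < 1 / 8 := by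
  by_contra hcon
  rw [not_lt] at hcon
  have hS0 : 0 < sphereVol (finrank ℝ V) := sphereVol_pos' _
  have hA0 : 0 < (volM V F).real univ := by linarith
  have he0 : e ≠ 0 := by
    rintro rfl
    rw [norm_zero] at hcon
    linarith
  have hn : ‖∫ x, N x ∂(volM V F)‖ = (volM V F).real univ * ‖e‖ := by
    rw [← he, norm_smul, Real.norm_eq_abs, abs_of_pos hA0]
  rw [hn] at htop
  have hΘ : (volM V F).real univ / sphereVol (finrank ℝ V) ≤ 14352 / 10000 := by
    rw [div_le_iff₀ hS0]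
    exact hhi
  have hν : ‖e‖ ≤ 7078 / 10000 := by
    have h1 := mul_le_mul_of_nonneg_right hlo (norm_nonneg e)
    have h2 : 1413 / 1000 * ‖e‖ ≤ 1 := by
      by_contra h3
      rw [not_le] at h3
      have := mul_lt_mul_of_pos_left h3 hS0
      nlinarith
    linarith
  rcases le_total ‖e‖ (2 / 5) with hc | hc
  · exact far_of_cert hm hW hF hmin hNs hN hinj he he0 hA0 CA.ok_rows CA.l0_rows
      (fun _ hT _ _ _ hN hw he P Q Z Ξ => CA.hpos hT.1 hT.2 he hN hw P Q Z Ξ)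
      fun q hq1 hq2 => num_A hΘ hcon hc hq1 hq2
  · exact far_of_cert hm hW hF hmin hNs hN hinj he he0 hA0 CB.ok_rows CB.l0_rows
      (fun _ hT _ _ _ hN hw he P Q Z Ξ => CB.hpos hT.1 hT.2 he hN hw P Q Z Ξ)
      fun q hq1 hq2 => num_B hΘ hc hν hq1 hq2

/-- **The far range**: if the volume is at most `1.4352 |S ^ m|`, then the mean normal has norm less
than `1 / 8`. -/
theorem far (hm : 2 ≤ finrank ℝ V) (hW : finrank ℝ W = finrank ℝ V + 2)
    {F : M → W} (hF : SphImm V F) (hmin : ∀ x n, IsUnitNormal V F x n → meanCurv V F x n = 0)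
    (hng : ¬ ∃ a : W, a ≠ 0 ∧ ∀ x, ⟪F x, a⟫ = 0)
    {N : M → W} (hNs : ContMDiff 𝓘(ℝ, V) 𝓘(ℝ, W) ∞ N) (hN : ∀ x, IsUnitNormal V F x (N x))
    (htop : ‖∫ x, N x ∂(volM V F)‖ ≤ sphereVol (finrank ℝ V)) {e : W}
    (he : (volM V F).real univ • e = ∫ x, N x ∂(volM V F))
    (hhi : (volM V F).real univ ≤ 14352 / 10000 * sphereVol (finrank ℝ V)) : ‖e‖ < 1 / 8 := by
  have hfin : IsFiniteMeasure (volM V F) := isFiniteMeasure_volM hF
  have hS0 : 0 < sphereVol (finrank ℝ V) := sphereVol_pos' _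
  have hinj : Injective F := by
    by_contra hinj
    have h2 := TwoSide.two_le (by omega) hW hF hmin hinj
    linarith
  refine far_aux hm hW hF hmin hNs hN hinj htop he ?_ hhi
  have h1 := U1413.mainU hm hW hF hmin hng
  have h2 := ENNReal.toReal_mono (measure_ne_top _ _) h1
  rw [ENNReal.toReal_ofReal (by positivity)] at h2
  have h3 : 1413 / 1000 * sphereVol (finrank ℝ V) ≤ 23153 / 16384 * sphereVol (finrank ℝ V) :=
    mul_le_mul_of_nonneg_right (by norm_num) hS0.le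
  exact h3.trans h2

end

end

end Vale.Agent.P224.R2.H389
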