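import Vale.Agent.P224.UG.Ratio

/-!
A sharp upper bound for the volumes of the least Clifford hypersurfaces in terms of `1 / (m + 1)`.
-/

namespace Vale.Agent.P224.R2.H389

open Vale.Agent.P224 Vale.Agent.P224.UG

/-- `1 + x ≤ exp (x - x ^ 2 / 2 + x ^ 3 / 2)` -/
lemma one_add_le_exp3 {x : ℝ} (h0 : 0 ≤ x) (h1 : x ≤ 1) :
    1 + x ≤ Real.exp (x - x ^ 2 / 2 + x ^ 3 / 2) := by
  have hy : 0 ≤ x - x ^ 2 / 2 + x ^ 3 / 2 := by
    have : x ^ 2 ≤ x := by nlinarith
    have : 0 ≤ x ^ 3 := by positivity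
    linarith
  refine le_trans ?_ (Real.quadratic_le_exp_of_nonneg hy)
  have h4 : 0 ≤ x ^ 4 := by positivity
  have h5 : x ^ 5 ≤ x ^ 4 := by
    have := mul_le_mul_of_nonneg_left h1 h4
    nlinarith
  have h6 : 0 ≤ x ^ 6 := by positivity
  nlinarith

lemma oddRatio_sharp (k : ℕ) : oddRatio k ≤ Real.sqrt 2 *
    Real.exp ((1 / (2 * (k : ℝ) + 1) + (1 / (2 * (k : ℝ) + 1)) ^ 3) / 4) := by
  have h : oddRatio k ^ 4 ≤ 4 * Real.exp (1 / (2 * (k : ℝ) + 1) + (1 / (2 * (k : ℝ) + 1)) ^ 3) := by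
    rw [oddRatio_pow_four]
    set x : ℝ := 1 / (2 * (k : ℝ) + 1) with hx
    have hm : (0 : ℝ) < 2 * (k : ℝ) + 1 := by positivity
    have hx0 : 0 < x := by positivity
    have hx1 : x ≤ 1 := by
      rw [hx, div_le_one hm]
      have : (0 : ℝ) ≤ k := Nat.cast_nonneg k
      linarith
    have e1 : 2 * (k : ℝ) / (2 * k + 1) = 1 - x := by rw [hx]; field_simp; ring
    have e2 : (2 * (k : ℝ) + 2) / (2 * k + 1) = 1 + x := by rw [hx]; field_simp; ring
    have e3 : (2 * (k : ℝ) + 1) * x = 1 := by rw [hx]; field_simp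
    rw [e1, e2]
    have e4 : (1 - x) ^ (2 * k) * (1 + x) ^ (2 * k + 2)
        = (1 + -x ^ 2) ^ (2 * k) * (1 + x) ^ 2 := by
      rw [pow_add, ← mul_assoc, ← mul_pow]
      congr 2
      ring
    rw [e4]
    have h1 : (1 + -x ^ 2) ^ (2 * k) ≤ Real.exp (-x + x ^ 2) := by
      have a1 : 1 + -x ^ 2 ≤ Real.exp (-x ^ 2) := by
        have := Real.add_one_le_exp (-x ^ 2)
        linarith
      have a2 : 0 ≤ 1 + -x ^ 2 := by nlinarith
      refine (pow_le_pow_left₀ a2 a1 _).trans (le_of_eq ?_)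
      rw [← Real.exp_nat_mul]
      congr 1
      push_cast
      have : 2 * (k : ℝ) * x = 1 - x := by linarith
      calc 2 * (k : ℝ) * -x ^ 2 = -(2 * (k : ℝ) * x) * x := by ring
        _ = -x + x ^ 2 := by rw [this]; ring
    have h2 : (1 + x) ^ 2 ≤ Real.exp (2 * (x - x ^ 2 / 2 + x ^ 3 / 2)) := by
      refine (pow_le_pow_left₀ (by linarith) (one_add_le_exp3 hx0.le hx1) 2).trans (le_of_eq ?_)
      rw [← Real.exp_nat_mul]
      norm_num
    have h3 : (1 + -x ^ 2) ^ (2 * k) * (1 + x) ^ 2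
        ≤ Real.exp (-x + x ^ 2) * Real.exp (2 * (x - x ^ 2 / 2 + x ^ 3 / 2)) :=
      mul_le_mul h1 h2 (by positivity) (Real.exp_pos _).le
    rw [← Real.exp_add] at h3
    have e5 : -x + x ^ 2 + 2 * (x - x ^ 2 / 2 + x ^ 3 / 2) = x + x ^ 3 := by ring
    rw [e5] at h3
    linarith
  refine le_of_pow_le_pow_left₀ (n := 4) (by norm_num) (by positivity) (h.trans (le_of_eq ?_))
  rw [mul_pow, ← Real.exp_nat_mul]
  have : Real.sqrt 2 ^ 4 = 4 := by
    rw [show (4 : ℕ) = 2 * 2 by norm_num, pow_mul, Real.sq_sqrt (by norm_num)]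
    norm_num
  rw [this]
  congr 2
  push_cast
  ring

/-- **The sharp bound for all dimensions.** -/
theorem leastClifford_sharp {m : ℕ} (hm : 2 ≤ m) : leastClifford m ≤
    Real.sqrt 2 * Real.exp ((1 / (m : ℝ) + (1 / (m : ℝ)) ^ 3) / 4) * sphereVol m := by
  rcases Nat.even_or_odd' m with ⟨k, hk | hk⟩
  · subst hk
    refine even_bound (by omega) ((evenRatio_le (by omega)).trans ?_)
    have hk' : (0 : ℝ) < k := by exact_mod_cast (by omega : 0 < k)
    refine mul_le_mul_of_nonneg_left (Real.exp_le_exp.2 ?_) (Real.sqrt_nonneg 2)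
    push_cast
    have h1 : 1 / (8 * (k : ℝ)) = 1 / (2 * k) / 4 := by ring
    have h2 : 0 ≤ (1 / (2 * (k : ℝ))) ^ 3 := by positivity
    rw [h1]
    linarith
  · subst hk
    refine odd_bound (by omega) ((oddRatio_sharp k).trans (le_of_eq ?_))
    push_cast
    rfl

/-- **The level in terms of `1 / (m + 1)`**: a bound valid for all dimensions from `n` on. -/
theorem leastClifford_lin {n : ℕ} (hn : 2 ≤ n) {κ : ℝ}
    (h : 1.4142136 * ((1 + 1 / (n : ℝ)) * (1 + (1 / (n : ℝ)) ^ 2) / 4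
      * (1 + (1 / (n : ℝ) + (1 / (n : ℝ)) ^ 3) / 8 + (1 / (n : ℝ) + (1 / (n : ℝ)) ^ 3) ^ 2 / 72))
      ≤ κ) {m : ℕ} (hm : n ≤ m) :
    leastClifford m ≤ (1.4142136 + κ / (m + 1)) * sphereVol m := by
  have hs2 : Real.sqrt 2 ≤ 1.4142136 := by
    rw [Real.sqrt_le_left (by norm_num)]
    norm_num
  refine (leastClifford_sharp (by omega)).trans
    (mul_le_mul_of_nonneg_right ?_ (sphereVol_pos' m).le)
  have hn' : (2 : ℝ) ≤ n := by exact_mod_cast hn
  have hm' : (n : ℝ) ≤ m := by exact_mod_cast hm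
  have hm0 : (0 : ℝ) < m := by linarith
  set z : ℝ := 1 / (n : ℝ) with hz
  set x : ℝ := 1 / (m : ℝ) with hx
  have hx0 : 0 < x := by positivity
  have hxz : x ≤ z := one_div_le_one_div_of_le (by linarith) hm'
  have hz1 : z ≤ 1 / 2 := one_div_le_one_div_of_le (by norm_num) hn'
  have hx3 : x ^ 3 ≤ x := by nlinarith [mul_pos hx0 hx0]
  set y : ℝ := (x + x ^ 3) / 4 with hy
  have hy0 : 0 ≤ y := by positivity
  have hy1 : y ≤ 1 := by
    rw [hy]
    linarith
  have hexp : Real.exp y ≤ 1 + y + y ^ 2 / 2 + 2 * y ^ 3 / 9 := by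
    have h3 := Real.exp_bound' hy0 hy1 (n := 3) (by norm_num)
    refine h3.trans (le_of_eq ?_)
    simp only [Finset.sum_range_succ, Finset.sum_range_zero, Nat.factorial]
    push_cast
    ring
  have hκ : 1.4142136 * (y + y ^ 2 / 2 + 2 * y ^ 3 / 9) ≤ κ * (x / (1 + x)) := by
    have h4 : 1.4142136 * ((1 + x) * (1 + x ^ 2) / 4 * (1 + (x + x ^ 3) / 8 + (x + x ^ 3) ^ 2 / 72))
        ≤ κ := by
      refine le_trans ?_ h
      gcongr
    have h5 := mul_le_mul_of_nonneg_right h4 (by positivity : 0 ≤ x / (1 + x))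
    refine le_trans (le_of_eq ?_) h5
    have h1x : (1 + x) ≠ 0 := by positivity
    rw [hy]
    field_simp
    ring
  have e6 : κ / ((m : ℝ) + 1) = κ * (x / (1 + x)) := by
    rw [hx]
    field_simp
  rw [e6]
  have h7 : Real.sqrt 2 * Real.exp y ≤ 1.4142136 * (1 + y + y ^ 2 / 2 + 2 * y ^ 3 / 9) :=
    mul_le_mul hs2 hexp (Real.exp_pos _).le (by norm_num)
  linarith

end Vale.Agent.P224.R2.H389
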