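import Vale.Agent.P224.R2.H135.ChkP

/-!
The numeric part of the laws of pairs of certificates, and the law of a pair on a minimal
hypersurface.
-/

namespace Vale.Agent.P224.R2.H389

open Vale.Agent.P224.UE Vale.Agent.P224.POS Vale.Agent.P224.UG Vale.Agent.P224.PU

/-- an affine function which is positive at two points is positive in between -/
lemma lin_pos {c s x q : ℝ} (h0 : 0 < c + s * x) (h1 : 0 < c + s) (hx : x ≤ q) (hq : q ≤ 1) :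
    0 < c + s * q := by
  rcases le_total 0 s with h | h
  · have := mul_le_mul_of_nonneg_left hx h
    linarith
  · have := mul_le_mul_of_nonpos_left hq h
    linarith

/-- a cubic polynomial with positive Bernstein coefficients -/
lemma bern3 {p0 p1 p2 p3 a b ν : ℝ} (h0 : a ≤ ν) (h1 : ν ≤ b) (hab : a < b)
    (B0 : 0 < p0 + p1 * a + p2 * a ^ 2 + p3 * a ^ 3)
    (B1 : 0 ≤ 3 * (p0 + p1 * a + p2 * a ^ 2 + p3 * a ^ 3)
      + (b - a) * (p1 + 2 * p2 * a + 3 * p3 * a ^ 2))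
    (B2 : 0 ≤ 3 * (p0 + p1 * b + p2 * b ^ 2 + p3 * b ^ 3)
      - (b - a) * (p1 + 2 * p2 * b + 3 * p3 * b ^ 2))
    (B3 : 0 < p0 + p1 * b + p2 * b ^ 2 + p3 * b ^ 3) :
    0 < p0 + p1 * ν + p2 * ν ^ 2 + p3 * ν ^ 3 := by
  have hu : 0 ≤ ν - a := by linarith
  have hv : 0 ≤ b - ν := by linarith
  have hw : 0 < b - a := by linarith
  have key : (b - a) ^ 3 * (p0 + p1 * ν + p2 * ν ^ 2 + p3 * ν ^ 3)
      = (p0 + p1 * a + p2 * a ^ 2 + p3 * a ^ 3) * (b - ν) ^ 3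
        + (3 * (p0 + p1 * a + p2 * a ^ 2 + p3 * a ^ 3)
          + (b - a) * (p1 + 2 * p2 * a + 3 * p3 * a ^ 2)) * ((b - ν) ^ 2 * (ν - a))
        + (3 * (p0 + p1 * b + p2 * b ^ 2 + p3 * b ^ 3)
          - (b - a) * (p1 + 2 * p2 * b + 3 * p3 * b ^ 2)) * ((b - ν) * (ν - a) ^ 2)
        + (p0 + p1 * b + p2 * b ^ 2 + p3 * b ^ 3) * (ν - a) ^ 3 := by ring
  have h4 : 0 < (b - a) ^ 3 * (p0 + p1 * ν + p2 * ν ^ 2 + p3 * ν ^ 3) := by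
    rw [key]
    have t1 := mul_nonneg B1 (mul_nonneg (pow_nonneg hv 2) hu)
    have t2 := mul_nonneg B2 (mul_nonneg hv (pow_nonneg hu 2))
    rcases hu.eq_or_lt with h | h
    · have h5 : 0 < b - ν := by linarith
      have t0 := mul_pos B0 (pow_pos h5 3)
      have t3 := mul_nonneg B3.le (pow_nonneg hu 3)
      linarith
    · have t0 := mul_nonneg B0.le (pow_nonneg hv 3)
      have t3 := mul_pos B3 (pow_pos h 3)
      linarith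
  exact (pos_iff_pos_of_mul_pos h4).1 (pow_pos hw 3)

/-- a polynomial in `ν` and `q` -/
def P5 (x : ℝ × ℝ × ℝ × ℝ × ℝ) (ν q : ℝ) : ℝ :=
  x.1 + x.2.1 * ν + x.2.2.1 * q + x.2.2.2.1 * ν ^ 2 + x.2.2.2.2 * (ν * q)

/-- positivity of the Bernstein coefficients -/
def Q4 (a b p0 p1 p2 p3 : ℝ) : Prop :=
  0 < p0 + p1 * a + p2 * a ^ 2 + p3 * a ^ 3 ∧
  0 ≤ 3 * (p0 + p1 * a + p2 * a ^ 2 + p3 * a ^ 3)
      + (b - a) * (p1 + 2 * p2 * a + 3 * p3 * a ^ 2) ∧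
  0 ≤ 3 * (p0 + p1 * b + p2 * b ^ 2 + p3 * b ^ 3)
      - (b - a) * (p1 + 2 * p2 * b + 3 * p3 * b ^ 2) ∧
  0 < p0 + p1 * b + p2 * b ^ 2 + p3 * b ^ 3

/-- positivity for `a ≤ ν ≤ b` and `ν ^ 2 ≤ q ≤ 1` -/
def Pos5 (a b x1 x2 x3 x4 x5 : ℝ) : Prop :=
  Q4 a b x1 x2 (x3 + x4) x5 ∧ Q4 a b (x1 + x3) (x2 + x5) x4 0

lemma pos5 {a b x1 x2 x3 x4 x5 ν q : ℝ} (h0 : a ≤ ν) (h1 : ν ≤ b) (hab : a < b)
    (hq0 : ν ^ 2 ≤ q) (hq1 : q ≤ 1) (h : Pos5 a b x1 x2 x3 x4 x5) :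
    0 < x1 + x2 * ν + x3 * q + x4 * ν ^ 2 + x5 * (ν * q) := by
  obtain ⟨⟨a1, a2, a3, a4⟩, b1, b2, b3, b4⟩ := h
  have h3 := bern3 h0 h1 hab a1 a2 a3 a4
  have h4 := bern3 h0 h1 hab b1 b2 b3 b4
  have h5 := lin_pos (c := x1 + x2 * ν + x4 * ν ^ 2) (s := x3 + x5 * ν) (x := ν ^ 2) (q := q)
    (by linarith) (by linarith) hq0 hq1
  linarith

/-- **The numeric law of a pair.** -/
theorem num_pair {a b C0 C1 x1 x2 x3 x4 x5 y1 y2 y3 y4 y5 u1 u2 u3 w1 w2 w3 : ℝ} (hab : a < b)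
    (hX : Pos5 a b x1 x2 x3 x4 x5) (hY : Pos5 a b y1 y2 y3 y4 y5)
    (h0 : Pos5 a b (u1 - C0 * x1) (u2 - C0 * x2) (u3 - C0 * x3) (-(C0 * x4)) (-(C0 * x5)))
    (h1 : Pos5 a b (w1 - C1 * y1) (w2 - C1 * y2) (w3 - C1 * y3) (-(C1 * y4)) (-(C1 * y5)))
    (hM : Pos5 a b (u1 + w1 - C0 * y1 - C1 * x1) (u2 + w2 - C0 * y2 - C1 * x2)
      (u3 + w3 - C0 * y3 - C1 * x3) (-(C0 * y4) - C1 * x4) (-(C0 * y5) - C1 * x5))
    {θ Θ ν q X Y U W : ℝ} (hθ0 : 0 ≤ θ) (hθ1 : θ ≤ 1) (hΘ : Θ ≤ C0 + θ * (C1 - C0))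
    (hν0 : a ≤ ν) (hν1 : ν ≤ b) (hq0 : ν ^ 2 ≤ q) (hq1 : q ≤ 1)
    (eX : X = x1 + x2 * ν + x3 * q + x4 * ν ^ 2 + x5 * (ν * q))
    (eY : Y = y1 + y2 * ν + y3 * q + y4 * ν ^ 2 + y5 * (ν * q))
    (eU : U = u1 + u2 * ν + u3 * q) (eW : W = w1 + w2 * ν + w3 * q) :
    Θ * ((1 - θ) * X + θ * Y) < (1 - θ) * U + θ * W := by
  have pX := pos5 hν0 hν1 hab hq0 hq1 hX
  have pY := pos5 hν0 hν1 hab hq0 hq1 hY
  have p0 := pos5 hν0 hν1 hab hq0 hq1 h0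
  have p1 := pos5 hν0 hν1 hab hq0 hq1 h1
  have pM := pos5 hν0 hν1 hab hq0 hq1 hM
  rw [← eX] at pX
  rw [← eY] at pY
  have q0 : 0 < U - C0 * X := by rw [eU, eX]; linarith
  have q1 : 0 < W - C1 * Y := by rw [eW, eY]; linarith
  have qM : 0 < U + W - C0 * Y - C1 * X := by rw [eU, eW, eX, eY]; linarith
  have hV : 0 ≤ (1 - θ) * X + θ * Y :=
    add_nonneg (mul_nonneg (by linarith) pX.le) (mul_nonneg hθ0 pY.le)
  refine (mul_le_mul_of_nonneg_right hΘ hV).trans_lt ?_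
  have key : (1 - θ) * U + θ * W - (C0 + θ * (C1 - C0)) * ((1 - θ) * X + θ * Y)
      = (1 - θ) ^ 2 * (U - C0 * X) + θ * (1 - θ) * (U + W - C0 * Y - C1 * X)
        + θ ^ 2 * (W - C1 * Y) := by ring
  have g1 : 0 ≤ 1 - θ := by linarith
  have t1 := mul_nonneg (mul_nonneg hθ0 g1) qM.le
  rcases hθ0.eq_or_lt with h | h
  · have t0 := mul_pos (pow_pos (by linarith : 0 < 1 - θ) 2) q0
    have t2 := mul_nonneg (pow_nonneg hθ0 2) q1.le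
    linarith
  · have t0 := mul_nonneg (pow_nonneg g1 2) q0.le
    have t2 := mul_pos (pow_pos h 2) q1
    linarith

lemma lsumc (a : ℤ) (l : List ℤ) : lsum (a :: l) = a + lsum l := rfl

lemma lsumn : lsum [] = 0 := rfl

end Vale.Agent.P224.R2.H389
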