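import Vale.Agent.P224.R2.H389.Far
import Vale.Agent.P224.R2.H389.NumP
import Vale.Agent.P224.R2.H389.Lvl

/-!
The law of a pair of certificates on a minimal hypersurface: the contradiction.
-/

namespace Vale.Agent.P224.R2.H389

open MeasureTheory Set Filter Function Module Vale.Agent.P224 Vale.Agent.P224.UE
open Vale.Agent.P224.UG Vale.Agent.P224.POS Vale.Agent.P224.PU Vale.Agent.P224.R2.H135
open scoped Topology RealInnerProductSpace ENNReal ContDiff Manifold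

noncomputable section

section

variable {V W M : Type*} [NormedAddCommGroup V] [InnerProductSpace ℝ V] [FiniteDimensional ℝ V]
  [NormedAddCommGroup W] [InnerProductSpace ℝ W] [FiniteDimensional ℝ W]
  [TopologicalSpace M] [ChartedSpace V M]
  [MeasurableSpace V] [BorelSpace V] [MeasurableSpace M] [BorelSpace M]
  [IsManifold 𝓘(ℝ, V) ∞ M] [CompactSpace M] [T2Space M] [ConnectedSpace M]
  [MeasurableSpace W] [BorelSpace W]

/-- The law of a pair of certificates with a unit vector on a minimal hypersurface: the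
contradiction. -/
theorem far_of_pair (hm : 2 ≤ finrank ℝ V) (hW : finrank ℝ W = finrank ℝ V + 2)
    {F : M → W} (hF : SphImm V F) (hmin : ∀ x n, IsUnitNormal V F x n → meanCurv V F x n = 0)
    {N : M → W} (hNs : ContMDiff 𝓘(ℝ, V) 𝓘(ℝ, W) ∞ N) (hN : ∀ x, IsUnitNormal V F x (N x))
    (hinj : Injective F) {e : W}
    (he : (volM V F).real univ • e = ∫ x, N x ∂(volM V F)) (he0 : e ≠ 0)
    (hA : 0 < (volM V F).real univ) {D : ℤ} {L0 L1 : List KT}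
    (ok0 : okK L0 = true) (ok1 : okK L1 = true) (z0 : l0 L0 = true) (z1 : l0 L1 = true)
    {K : ℝ} (hK0 : 0 ≤ K) (hK : K ≤ finrank ℝ V + 1)
    (hpt : ∀ T ∈ Ioo (0 : ℝ) 1, ∃ ZE ZO : ℕ → ℕ → ℝ, Psd ZE ∧ Psd ZO ∧
      ∀ u w e : W, ‖u‖ = 1 → ‖w‖ = 1 → ‖e‖ = 1 → ∀ P Q Z Ξ : ℝ,
      (Dsum (certK D L0) T ![P, Q, ⟪u, w⟫, ⟪u, e⟫, ⟪w, e⟫, Z, Ξ, ⟪e, e⟫]
        + Dsum (certK D L0) T (sw8 T ![P, Q, ⟪u, w⟫, ⟪u, e⟫, ⟪w, e⟫, Z, Ξ, ⟪e, e⟫])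
        + (H135.XE 0 K ZE (vK (kf T) ![P, Q, ⟪u, w⟫, ⟪u, e⟫, ⟪w, e⟫, Z, Ξ, ⟪e, e⟫])
          + H135.XO 0 K ZO (vK (kf T) ![P, Q, ⟪u, w⟫, ⟪u, e⟫, ⟪w, e⟫, Z, Ξ, ⟪e, e⟫])) ≤ 0) ∧
      (Dsum (certK D L1) T ![P, Q, ⟪u, w⟫, ⟪u, e⟫, ⟪w, e⟫, Z, Ξ, ⟪e, e⟫]
        + Dsum (certK D L1) T (sw8 T ![P, Q, ⟪u, w⟫, ⟪u, e⟫, ⟪w, e⟫, Z, Ξ, ⟪e, e⟫])
        + (H135.XE 1 K ZE (vK (kf T) ![P, Q, ⟪u, w⟫, ⟪u, e⟫, ⟪w, e⟫, Z, Ξ, ⟪e, e⟫])
          + H135.XO 1 K ZO (vK (kf T) ![P, Q, ⟪u, w⟫, ⟪u, e⟫, ⟪w, e⟫, Z, Ξ, ⟪e, e⟫])) ≤ 0))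
    (hnum : ∀ θ q : ℝ, 0 ≤ θ → θ ≤ 1 → θ = K / (finrank ℝ V + 1) → ‖e‖ ^ 2 ≤ q → q ≤ 1 →
      (volM V F).real univ / sphereVol (finrank ℝ V)
          * ((1 - θ) * H0 D L0 ‖e‖ q + θ * H0 D L1 ‖e‖ q)
        < (1 - θ) * H1 D L0 ‖e‖ q + θ * H1 D L1 ‖e‖ q) :
    False := by
  have hm0 : 0 < finrank ℝ V := by omega
  have hfin : IsFiniteMeasure (volM V F) := isFiniteMeasure_volM hF
  obtain ⟨B, hE⟩ := embD_of_inj hm0 hW hF hmin hNs hN hinj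
  have hG := gc_cone hW (by omega) hF hmin hNs hN
  have hS0 : 0 < sphereVol (finrank ℝ V) := sphereVol_pos' _
  have hm1 : (0 : ℝ) < finrank ℝ V + 1 := by positivity
  set θ : ℝ := K / (finrank ℝ V + 1) with hθ
  have hθ0 : 0 ≤ θ := by positivity
  have hθ1 : θ ≤ 1 := by rw [hθ, div_le_one hm1]; exact hK
  obtain ⟨q, hq1, hq2, hq3⟩ := law_pair hE (by omega) hG hF.unit he hA he0 ok0 ok1 z0 z1
    (a := 1 - θ) (b := θ) (θ₀ := 0) (θ₁ := 1) (N := K) (by linarith) hθ0 (by ring) le_rfl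
    zero_le_one zero_le_one le_rfl (by
      have e1 : (1 - θ) * 0 + θ * 1 = θ := by ring
      rw [e1, hθ]
      push_cast
      rw [div_mul_cancel₀ _ hm1.ne']) hpt
  have h1 := hnum θ q hθ0 hθ1 hθ hq1 hq2
  rw [div_mul_eq_mul_div, div_lt_iff₀ hS0] at h1
  linarith

/-- A regular minimal hypersurface with volume less than twice the volume of the sphere is
embedded. -/
lemma inj_of_vol (hm : 2 ≤ finrank ℝ V) (hW : finrank ℝ W = finrank ℝ V + 2)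
    {F : M → W} (hF : SphImm V F) (hmin : ∀ x n, IsUnitNormal V F x n → meanCurv V F x n = 0)
    (hhi : (volM V F).real univ ≤ 14352 / 10000 * sphereVol (finrank ℝ V)) : Injective F := by
  have hS0 : 0 < sphereVol (finrank ℝ V) := sphereVol_pos' _
  by_contra hinj
  have h2 := TwoSide.two_le (by omega) hW hF hmin hinj
  linarith

end

end

end Vale.Agent.P224.R2.H389
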