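import Vale.Agent.P224.R2.H389.CA.Rows
import Vale.Agent.P224.R2.H389.CB.Rows

/-!
The numeric law of the two certificates.
-/

namespace Vale.Agent.P224.R2.H389

open Vale.Agent.P224.UE Vale.Agent.P224.POS Vale.Agent.P224.UG Vale.Agent.P224.PU

noncomputable section

lemma lsc (a : ℤ) (l : List ℤ) : lsum (a :: l) = a + lsum l := rfl

lemma lsn : lsum [] = 0 := rfl

theorem H0_A (ν q : ℝ) : H0 CA.D CA.rows ν q
    = 1 - 18241977 / 16777216 * ν + 2081623 / 8388608 * q + 4657451 / 8388608 * ν ^ 2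
      - 1513111 / 16777216 * (ν * q) := by
  unfold CA.rows
  simp only [H0_cons, H0_nil, lsc, lsn, v0h, v3, CA.D]
  push_cast
  ring

theorem H1_A (ν q : ℝ) : H1 CA.D CA.rows ν q
    = 11708093 / 8388608 - 4775621 / 4194304 * ν + 712979 / 2097152 * q := by
  unfold CA.rows
  simp only [H1_cons, H1_nil, List.headD_cons, v1h, v3, CA.D]
  push_cast
  ring

theorem H0_B (ν q : ℝ) : H0 CB.D CB.rows ν q
    = 16777215 / 16777216 - 22789005 / 16777216 * ν + 642443 / 4194304 * q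
      + 3553051 / 8388608 * ν ^ 2 - 330391 / 16777216 * (ν * q) := by
  unfold CB.rows
  simp only [H0_cons, H0_nil, lsc, lsn, v0h, v3, CB.D]
  push_cast
  ring

theorem H1_B (ν q : ℝ) : H1 CB.D CB.rows ν q
    = 21373163 / 16777216 - 5413685 / 4194304 * ν + 1752445 / 8388608 * q := by
  unfold CB.rows
  simp only [H1_cons, H1_nil, List.headD_cons, v1h, v3, CB.D]
  push_cast
  ring

/-- the law of the first certificate is violated for `1 / 8 ≤ ν ≤ 2 / 5` -/
theorem num_A {Θ ν q : ℝ} (h2 : Θ ≤ 14352 / 10000) (h3 : 1 / 8 ≤ ν)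
    (h4 : ν ≤ 2 / 5) (h5 : ν ^ 2 ≤ q) (h6 : q ≤ 1) :
    Θ * H0 CA.D CA.rows ν q < H1 CA.D CA.rows ν q := by
  rw [H0_A, H1_A]
  have hν0 : 0 ≤ ν := by linarith
  have hq0 : 0 ≤ q := le_trans (sq_nonneg ν) h5
  have hνq : ν * q ≤ ν := by nlinarith
  have hH : 0 ≤ 1 - 18241977 / 16777216 * ν + 2081623 / 8388608 * q + 4657451 / 8388608 * ν ^ 2
      - 1513111 / 16777216 * (ν * q) := by
    nlinarith [sq_nonneg ν]
  have hΘ : Θ * (1 - 18241977 / 16777216 * ν + 2081623 / 8388608 * q + 4657451 / 8388608 * ν ^ 2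
      - 1513111 / 16777216 * (ν * q)) ≤ 14352 / 10000 * (1 - 18241977 / 16777216 * ν
      + 2081623 / 8388608 * q + 4657451 / 8388608 * ν ^ 2 - 1513111 / 16777216 * (ν * q)) :=
    mul_le_mul_of_nonneg_right h2 hH
  have hs : 0 ≤ 712979 / 2097152 - 14352 / 10000 * (2081623 / 8388608 - 1513111 / 16777216 * ν) := by
    nlinarith
  have hq := mul_nonneg hs (sub_nonneg.2 h5)
  have hcub : 0 < 11708093 / 8388608 - 4775621 / 4194304 * ν + 712979 / 2097152 * ν ^ 2
      - 14352 / 10000 * (1 - 18241977 / 16777216 * ν + 2081623 / 8388608 * ν ^ 2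
        + 4657451 / 8388608 * ν ^ 2 - 1513111 / 16777216 * (ν * ν ^ 2)) := by
    nlinarith [mul_nonneg (sub_nonneg.2 h3) (sub_nonneg.2 h4),
      mul_nonneg (mul_nonneg (sub_nonneg.2 h3) (sub_nonneg.2 h4)) hν0]
  nlinarith

/-- the law of the second certificate is violated for `2 / 5 ≤ ν ≤ 0.7078` -/
theorem num_B {Θ ν q : ℝ} (h2 : Θ ≤ 14352 / 10000) (h3 : 2 / 5 ≤ ν)
    (h4 : ν ≤ 7078 / 10000) (h5 : ν ^ 2 ≤ q) (h6 : q ≤ 1) :
    Θ * H0 CB.D CB.rows ν q < H1 CB.D CB.rows ν q := by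
  rw [H0_B, H1_B]
  have hν0 : 0 ≤ ν := by linarith
  have hq0 : 0 ≤ q := le_trans (sq_nonneg ν) h5
  have hνq : ν * q ≤ ν := by nlinarith
  have hH : 0 ≤ 16777215 / 16777216 - 22789005 / 16777216 * ν + 642443 / 4194304 * q
      + 3553051 / 8388608 * ν ^ 2 - 330391 / 16777216 * (ν * q) := by
    nlinarith [sq_nonneg ν]
  have hΘ : Θ * (16777215 / 16777216 - 22789005 / 16777216 * ν + 642443 / 4194304 * q
      + 3553051 / 8388608 * ν ^ 2 - 330391 / 16777216 * (ν * q))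
      ≤ 14352 / 10000 * (16777215 / 16777216 - 22789005 / 16777216 * ν + 642443 / 4194304 * q
      + 3553051 / 8388608 * ν ^ 2 - 330391 / 16777216 * (ν * q)) :=
    mul_le_mul_of_nonneg_right h2 hH
  have hs : 0 ≤ 1752445 / 8388608 - 14352 / 10000 * (642443 / 4194304 - 330391 / 16777216 * ν) := by
    nlinarith
  have hq := mul_nonneg hs (sub_nonneg.2 h5)
  have hcub : 0 < 21373163 / 16777216 - 5413685 / 4194304 * ν + 1752445 / 8388608 * ν ^ 2
      - 14352 / 10000 * (16777215 / 16777216 - 22789005 / 16777216 * ν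
        + 642443 / 4194304 * ν ^ 2 + 3553051 / 8388608 * ν ^ 2
        - 330391 / 16777216 * (ν * ν ^ 2)) := by
    nlinarith [mul_nonneg (sub_nonneg.2 h3) (sub_nonneg.2 h4),
      mul_nonneg (mul_nonneg (sub_nonneg.2 h3) (sub_nonneg.2 h4)) hν0]
  nlinarith

end

end Vale.Agent.P224.R2.H389
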