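import Vale.Agent.P224.PU.ValK

/-!
Scaling of a Gaussian certificate: a certificate for the unit vector `e / ‖e‖` gives a certificate
for `e`, and the law in the normalized quantities `ν = ‖e‖`, `q = r / ν ^ 2`.
-/

namespace Vale.Agent.P224.R2.H389

open MeasureTheory Set Filter Function
open Vale.Agent.P224.UE Vale.Agent.P224.POS Vale.Agent.P224.UG Vale.Agent.P224.PU
open Vale.Agent.P224.SH (pv pv')
open scoped RealInnerProductSpace Topology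

noncomputable section

/-- the degree in the vector `e` of a term -/
def dg (t : GTerm) : ℕ :=
  t.b + t.k + t.d + 2 * t.l + (match t.fam with
    | 0 => 0
    | 1 => 0
    | 2 => 1
    | 3 => 0
    | 4 => 1
    | 5 => 1)

/-- scaling of the cone data -/
def sv (ν : ℝ) (v : R8) : R8 :=
  ![v 0, v 1, v 2, ν * v 3, ν * v 4, ν * v 5, ν * v 6, ν ^ 2 * v 7]

lemma sw8_sv (T ν : ℝ) (v : R8) : sw8 T (sv ν v) = sv ν (sw8 T v) := by
  funext i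
  fin_cases i <;> simp [sw8, sv] <;> ring

lemma D_sv (t : GTerm) (T φ φ' ν : ℝ) (v : R8) :
    t.D T φ φ' (sv ν v) = ν ^ dg t * t.D T φ φ' v := by
  obtain ⟨fam, a, b, k, d, l⟩ := t
  have s0 : sv ν v 0 = v 0 := rfl
  have s1 : sv ν v 1 = v 1 := rfl
  have s2 : sv ν v 2 = v 2 := rfl
  have s3 : sv ν v 3 = ν * v 3 := rfl
  have s4 : sv ν v 4 = ν * v 4 := rfl
  have s5 : sv ν v 5 = ν * v 5 := rfl
  have s6 : sv ν v 6 = ν * v 6 := rfl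
  have s7 : sv ν v 7 = ν ^ 2 * v 7 := rfl
  rcases b with _ | b
  · fin_cases fam <;>
      simp only [GTerm.D, GTerm.g, GTerm.gQ, GTerm.gZ, GTerm.w, dg, s0, s1, s2, s3, s4, s5, s6, s7,
        Nat.cast_zero, zero_mul, mul_zero, pow_zero, mul_one, add_zero, zero_add, mul_pow, pow_add,
        pow_mul, pow_one] <;> ring
  · fin_cases fam <;>
      simp only [GTerm.D, GTerm.g, GTerm.gQ, GTerm.gZ, GTerm.w, dg, s0, s1, s2, s3, s4, s5, s6, s7,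
        Nat.add_sub_cancel, mul_pow, pow_add, pow_mul, pow_one, add_zero] <;> ring

lemma D_smul (t : GTerm) (T c φ φ' : ℝ) (v : R8) :
    t.D T (c * φ) (c * φ') v = c * t.D T φ φ' v := by
  obtain ⟨fam, a, b, k, d, l⟩ := t
  fin_cases fam <;> simp only [GTerm.D] <;> ring

/-- the scaled certificate -/
def sclC (ν : ℝ) (l : Cert) : Cert :=
  l.map fun t => (t.1, fun T => (ν ^ dg t.1)⁻¹ * t.2.1 T, fun T => (ν ^ dg t.1)⁻¹ * t.2.2 T)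

lemma Dsum_sclC {ν : ℝ} (hν : ν ≠ 0) (l : Cert) (T : ℝ) (v : R8) :
    Dsum (sclC ν l) T (sv ν v) = Dsum l T v := by
  unfold Dsum sclC
  rw [List.map_map]
  congr 1
  refine List.map_congr_left fun t _ => ?_
  simp only [Function.comp]
  rw [D_smul, D_sv, ← mul_assoc, inv_mul_cancel₀ (pow_ne_zero _ hν), one_mul]

lemma mem_sclC {ν : ℝ} {l : Cert} {t : GTerm × (ℝ → ℝ) × (ℝ → ℝ)} (h : t ∈ sclC ν l) :
    ∃ s ∈ l, t = (s.1, fun T => (ν ^ dg s.1)⁻¹ * s.2.1 T, fun T => (ν ^ dg s.1)⁻¹ * s.2.2 T) := by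
  unfold sclC at h
  obtain ⟨s, hs, rfl⟩ := List.mem_map.1 h
  exact ⟨s, hs, rfl⟩

/-- the normalized value at level zero for the unit vector -/
def v0h (t : GTerm) (ν q : ℝ) : ℝ :=
  match t.fam with
  | 0 => v3 1 ν q t.k
  | 1 => 0
  | 2 => 0
  | 3 => v3 (ν ^ 2) (ν * q) 0 t.k
  | 4 => v3 ν (ν ^ 2) (ν * q) t.k
  | 5 => 0

/-- the normalized value at level one for the unit vector -/
def v1h (t : GTerm) (ν q : ℝ) : ℝ :=
  match t.fam with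
  | 0 => v3 1 ν q t.k
  | 1 => 0
  | 2 => 0
  | 3 => v3 1 ν q t.k
  | 4 => v3 ν q 0 t.k
  | 5 => 0

lemma v0_hat {t : GTerm} (hl : t.l = 0) (h : t.k0ok = true) {ν : ℝ} (hν : ν ≠ 0) (q : ℝ) :
    (ν ^ dg t)⁻¹ * t.v0 (ν ^ 2) (ν ^ 2 * q) = v0h t ν q := by
  obtain ⟨fam, a, b, k, d, l⟩ := t
  simp only at hl
  subst hl
  unfold GTerm.k0ok at h
  fin_cases fam
  · simp only [decide_eq_true_eq] at h
    obtain ⟨rfl, rfl, rfl, hk⟩ := h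
    interval_cases k <;> simp [dg, v0h, GTerm.v0, v3] <;> field_simp
  · simp [v0h, GTerm.v0]
  · simp [v0h, GTerm.v0]
  · simp only [decide_eq_true_eq] at h
    obtain ⟨rfl, rfl, rfl, hk⟩ := h
    interval_cases k <;> simp [dg, v0h, GTerm.v0, v3] <;> field_simp
  · simp only [decide_eq_true_eq] at h
    obtain ⟨rfl, rfl, rfl, hk⟩ := h
    interval_cases k <;> simp [dg, v0h, GTerm.v0, v3] <;> field_simp
  · simp [v0h, GTerm.v0]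

lemma v1_hat {t : GTerm} (hl : t.l = 0) (h : t.k1ok = true) {ν : ℝ} (hν : ν ≠ 0) (q : ℝ) :
    (ν ^ dg t)⁻¹ * t.v1 (ν ^ 2) (ν ^ 2 * q) = v1h t ν q := by
  obtain ⟨fam, a, b, k, d, l⟩ := t
  simp only at hl
  subst hl
  unfold GTerm.k1ok at h
  fin_cases fam
  · simp only [decide_eq_true_eq] at h
    obtain ⟨rfl, rfl, rfl, hk⟩ := h
    interval_cases k <;> simp [dg, v1h, GTerm.v1, v3] <;> field_simp
  · simp [v1h, GTerm.v1]
  · simp [v1h, GTerm.v1]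
  · simp only [decide_eq_true_eq] at h
    obtain ⟨rfl, rfl, rfl, hk⟩ := h
    interval_cases k <;> simp [dg, v1h, GTerm.v1, v3] <;> field_simp
  · simp only [decide_eq_true_eq] at h
    obtain ⟨rfl, rfl, rfl, hk⟩ := h
    interval_cases k <;> simp [dg, v1h, GTerm.v1, v3] <;> field_simp
  · simp [v1h, GTerm.v1]

/-- the value at level zero -/
def H0 (D : ℤ) (L : List KT) (ν q : ℝ) : ℝ :=
  (L.map fun x => (lsum x.ψ : ℝ) / D * v0h x.t ν q).sum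

/-- the value at level one -/
def H1 (D : ℤ) (L : List KT) (ν q : ℝ) : ℝ :=
  (L.map fun x => ((x.ψ.headD 0 : ℤ) : ℝ) / D * v1h x.t ν q).sum

/-- no power of `⟪e, e⟫` -/
def l0 (L : List KT) : Bool := L.all fun x => Nat.beq x.t.l 0

variable {D : ℤ} {L : List KT}

lemma l0_mem (h : l0 L = true) {x : KT} (hx : x ∈ L) : x.t.l = 0 :=
  Nat.eq_of_beq_eq_true (List.all_eq_true.1 h x hx)

lemma V0_sclC (hok : okK L = true) (hl : l0 L = true) {ν : ℝ} (hν : ν ≠ 0) (q : ℝ) :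
    V0 (sclC ν (certK D L)) (ν ^ 2) (ν ^ 2 * q) = H0 D L ν q := by
  unfold V0 sclC certK H0
  rw [List.map_map, List.map_map]
  congr 1
  refine List.map_congr_left fun x hx => ?_
  simp only [Function.comp]
  have e1 : (x.G D).1 = x.t := rfl
  rw [e1]
  rcases (okK_mem hok hx).2 with h | ⟨h, -⟩
  · have h0 := (v_isN h (ν ^ 2) (ν ^ 2 * q)).1
    rw [← v0_hat (l0_mem hl hx) (kok_of_isN h).1 hν q, h0]
    ring
  · by_cases hn : isN x.t.fam = true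
    · have h0 := (v_isN hn (ν ^ 2) (ν ^ 2 * q)).1
      rw [← v0_hat (l0_mem hl hx) (kok_of_isN hn).1 hν q, h0]
      ring
    · rw [x.phi_zero (by simpa using hn), pv_at_one]
      rcases h with h | h
      · rw [← v0_hat (l0_mem hl hx) h hν q]
        ring
      · rw [h]
        simp

lemma V1_sclC (hok : okK L = true) (hl : l0 L = true) {ν : ℝ} (hν : ν ≠ 0) (q : ℝ) :
    V1 (sclC ν (certK D L)) (ν ^ 2) (ν ^ 2 * q) = H1 D L ν q := by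
  unfold V1 sclC certK H1
  rw [List.map_map, List.map_map]
  congr 1
  refine List.map_congr_left fun x hx => ?_
  simp only [Function.comp]
  have e1 : (x.G D).1 = x.t := rfl
  rw [e1]
  rcases (okK_mem hok hx).2 with h | ⟨-, h⟩
  · have h0 := (v_isN h (ν ^ 2) (ν ^ 2 * q)).2
    rw [← v1_hat (l0_mem hl hx) (kok_of_isN h).2 hν q, h0]
    ring
  · by_cases hn : isN x.t.fam = true
    · have h0 := (v_isN hn (ν ^ 2) (ν ^ 2 * q)).2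
      rw [← v1_hat (l0_mem hl hx) (kok_of_isN hn).2 hν q, h0]
      ring
    · rw [x.phi_one (by simpa using hn), pv_at_zero]
      rcases h with h | h
      · rw [← v1_hat (l0_mem hl hx) h hν q]
        ring
      · rw [h]
        simp

lemma H0_cons (x : KT) (L : List KT) (ν q : ℝ) :
    H0 D (x :: L) ν q = (lsum x.ψ : ℝ) / D * v0h x.t ν q + H0 D L ν q := rfl

lemma H1_cons (x : KT) (L : List KT) (ν q : ℝ) :
    H1 D (x :: L) ν q = ((x.ψ.headD 0 : ℤ) : ℝ) / D * v1h x.t ν q + H1 D L ν q := rfl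

lemma H0_nil (ν q : ℝ) : H0 D [] ν q = 0 := rfl

lemma H1_nil (ν q : ℝ) : H1 D [] ν q = 0 := rfl

section

variable {X : Type*} [MeasurableSpace X] {E : Type*} [NormedAddCommGroup E]
  [InnerProductSpace ℝ E] [MeasurableSpace E] [BorelSpace E] [SecondCountableTopology E]
  {μ : Measure X} [IsFiniteMeasure μ] {m : ℕ} {p n : X → E} {C S : ℝ}

omit [MeasurableSpace E] [BorelSpace E] [SecondCountableTopology E] in
lemma vec_sv {e f N w : E} {ν : ℝ} (hν : ν ≠ 0) (he : e = ν • f) (P Q Z Ξ : ℝ) :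
    (![P, Q, ⟪N, w⟫, ⟪N, e⟫, ⟪w, e⟫, Z, Ξ, ⟪e, e⟫] : R8)
      = sv ν ![P, Q, ⟪N, w⟫, ⟪N, f⟫, ⟪w, f⟫, ν⁻¹ * Z, ν⁻¹ * Ξ, ⟪f, f⟫] := by
  have a1 : ⟪N, e⟫ = ν * ⟪N, f⟫ := by rw [he, real_inner_smul_right]
  have a2 : ⟪w, e⟫ = ν * ⟪w, f⟫ := by rw [he, real_inner_smul_right]
  have a3 : ⟪e, e⟫ = ν ^ 2 * ⟪f, f⟫ := by
    rw [he, real_inner_smul_left, real_inner_smul_right]
    ring
  have a4 : ν * (ν⁻¹ * Z) = Z := by rw [← mul_assoc, mul_inv_cancel₀ hν, one_mul]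
  have a5 : ν * (ν⁻¹ * Ξ) = Ξ := by rw [← mul_assoc, mul_inv_cancel₀ hν, one_mul]
  have e1 : sv ν ![P, Q, ⟪N, w⟫, ⟪N, f⟫, ⟪w, f⟫, ν⁻¹ * Z, ν⁻¹ * Ξ, ⟪f, f⟫]
      = ![P, Q, ⟪N, w⟫, ν * ⟪N, f⟫, ν * ⟪w, f⟫, ν * (ν⁻¹ * Z), ν * (ν⁻¹ * Ξ),
        ν ^ 2 * ⟪f, f⟫] := rfl
  rw [e1, a1, a2, a3, a4, a5]

omit [MeasurableSpace E] [BorelSpace E] [SecondCountableTopology E] in
/-- the pointwise inequality for the scaled certificate -/
lemma hpos_scl {e : E} (he0 : e ≠ 0) {l : Cert} {T : ℝ}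
    (hpos : ∀ N w e : E, ‖N‖ = 1 → ‖w‖ = 1 → ‖e‖ = 1 → ∀ P Q Z Ξ : ℝ,
      Dsum l T ![P, Q, ⟪N, w⟫, ⟪N, e⟫, ⟪w, e⟫, Z, Ξ, ⟪e, e⟫]
        + Dsum l T (sw8 T ![P, Q, ⟪N, w⟫, ⟪N, e⟫, ⟪w, e⟫, Z, Ξ, ⟪e, e⟫]) ≤ 0)
    (N w : E) (hN : ‖N‖ = 1) (hw : ‖w‖ = 1) (P Q Z Ξ : ℝ) :
    Dsum (sclC ‖e‖ l) T ![P, Q, ⟪N, w⟫, ⟪N, e⟫, ⟪w, e⟫, Z, Ξ, ⟪e, e⟫]
      + Dsum (sclC ‖e‖ l) T (sw8 T ![P, Q, ⟪N, w⟫, ⟪N, e⟫, ⟪w, e⟫, Z, Ξ, ⟪e, e⟫]) ≤ 0 := by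
  have hν : ‖e‖ ≠ 0 := norm_ne_zero_iff.2 he0
  have h1 : ‖(‖e‖⁻¹ • e : E)‖ = 1 := by
    rw [norm_smul, norm_inv, norm_norm, inv_mul_cancel₀ hν]
  have h2 : e = ‖e‖ • (‖e‖⁻¹ • e : E) := by
    rw [smul_smul, mul_inv_cancel₀ hν, one_smul]
  rw [vec_sv hν h2 P Q Z Ξ, sw8_sv, Dsum_sclC hν, Dsum_sclC hν]
  exact hpos N w _ hN hw h1 P Q _ _

lemma cont_scl {φ : ℝ → ℝ} {s : Set ℝ} (c : ℝ) (h : ContinuousOn φ s) :
    ContinuousOn (fun T => c * φ T) s := continuousOn_const.mul h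

lemma act_scl {ν : ℝ} (hok : okK L = true) :
    (∀ t ∈ sclC ν (certK D L), t.1.b ≤ 2) ∧
    (∀ t ∈ sclC ν (certK D L), t.1.act → ContinuousOn t.2.1 (Icc 0 1)) ∧
    (∀ t ∈ sclC ν (certK D L), t.1.act → ∀ T ∈ Ioo (0 : ℝ) 1, HasDerivAt t.2.1 (t.2.2 T) T) ∧
    (∀ t ∈ sclC ν (certK D L), t.1.k0ok = true ∨ t.2.1 0 = 0) ∧
    (∀ t ∈ sclC ν (certK D L), t.1.k1ok = true ∨ t.2.1 1 = 0) := by
  refine ⟨fun t ht => ?_, fun t ht ha => ?_, fun t ht ha T hT => ?_, fun t ht => ?_,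
    fun t ht => ?_⟩
  · obtain ⟨s, hs, rfl⟩ := mem_sclC ht
    exact hb_certK hok s hs
  · obtain ⟨s, hs, rfl⟩ := mem_sclC ht
    exact cont_scl _ (hc_certK s hs ha)
  · obtain ⟨s, hs, rfl⟩ := mem_sclC ht
    exact (hd_certK s hs ha T hT).const_mul _
  · obtain ⟨s, hs, rfl⟩ := mem_sclC ht
    rcases h0_certK hok s hs with h | h
    · exact Or.inl h
    · right
      simp only [h, mul_zero]
  · obtain ⟨s, hs, rfl⟩ := mem_sclC ht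
    rcases h1_certK hok s hs with h | h
    · exact Or.inl h
    · right
      simp only [h, mul_zero]

/-- **The law of a certificate for the normalized mean normal**, every dimension. -/
theorem law_F [CompleteSpace E] [Nonempty X] (hD : EmbD μ m p n C S) (hm : 1 ≤ m)
    (hG : GC (gam m μ) (m + 1) (cp p) (cn n)) {e : E}
    (he : (μ.real univ) • e = ∫ x, n x ∂μ) (hA : 0 < μ.real univ) (he0 : e ≠ 0)
    (hok : okK L = true) (hl : l0 L = true)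
    (hpos : ∀ T ∈ Ioo (0 : ℝ) 1, ∀ N w e : E, ‖N‖ = 1 → ‖w‖ = 1 → ‖e‖ = 1 → ∀ P Q Z Ξ : ℝ,
      Dsum (certK D L) T ![P, Q, ⟪N, w⟫, ⟪N, e⟫, ⟪w, e⟫, Z, Ξ, ⟪e, e⟫]
        + Dsum (certK D L) T (sw8 T ![P, Q, ⟪N, w⟫, ⟪N, e⟫, ⟪w, e⟫, Z, Ξ, ⟪e, e⟫]) ≤ 0) :
    ∃ q : ℝ, ‖e‖ ^ 2 ≤ q ∧ q ≤ 1 ∧
      S * H1 D L ‖e‖ q ≤ μ.real univ * H0 D L ‖e‖ q := by
  have hν : 0 < ‖e‖ := norm_pos_iff.2 he0
  have hν2 : 0 < ‖e‖ ^ 2 := by positivity
  obtain ⟨b1, b2, b3, b4, b5⟩ := act_scl (D := D) (ν := ‖e‖) hok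
  obtain ⟨r, hr1, hr2, hr3⟩ := law_U hD hm hG he hA (sclC ‖e‖ (certK D L)) b1 b2 b3 b4 b5
    (fun T hT N w hN hw P Q Z Ξ => hpos_scl he0 (hpos T hT) N w hN hw P Q Z Ξ)
  refine ⟨r / ‖e‖ ^ 2, ?_, ?_, ?_⟩
  · rw [le_div_iff₀ hν2]
    calc ‖e‖ ^ 2 * ‖e‖ ^ 2 = (‖e‖ ^ 2) ^ 2 := by ring
      _ ≤ r := hr1
  · rw [div_le_one hν2]
    exact hr2
  · have h5 : r = ‖e‖ ^ 2 * (r / ‖e‖ ^ 2) := by field_simp
    rw [h5, V1_sclC hok hl hν.ne', V0_sclC hok hl hν.ne'] at hr3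
    exact hr3

end

end

end Vale.Agent.P224.R2.H389
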