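import Vale.Agent.P224.PU.FinK

/-!
The substitution and the table of inner products for a Gaussian certificate with a unit vector
`e` (so that `⟪e, e⟫ = 1` is not a variable). New variables as in `PU/KSub.lean`: `0 = k`, `1 = P₊`,
`2 = P₋`, `3 = g`, `4 = s₊`, `5 = s₋`, `6 = n₊`, `7 = n₋`.
-/

namespace Vale.Agent.P224.R2.H389

open Vale.Agent.P224.UE Vale.Agent.P224.POS Vale.Agent.P224.UG Vale.Agent.P224.PU
open scoped RealInnerProductSpace

noncomputable section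

/-- the table of inner products -/
def tabF : List (List PE) :=
  [[.c 1, .c 0, .c 0, .c 0],
   [.c 0, .sub (.c 1) (.v 3), .c 0, .v 6],
   [.c 0, .c 0, .v 3, .v 7],
   [.c 0, .v 6, .v 7, .c 1]]

/-- the substitution -/
def sf1 (i : Nat) : PE :=
  lk (fun _ => PE.c 0)
    [.add (.v 1) (.v 2), .sub (.v 1) (.v 2), .sub (.c 1) (.mul (.c 2) (.v 3)),
      .add (.v 6) (.v 7), .sub (.v 6) (.v 7), .add (.mul (.v 0) (.v 4)) (.v 5),
      .sub (.v 4) (.mul (.v 0) (.v 5)), .c 1, .v 0] i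

/-- the substitution for the exchanged points -/
def sf2 (i : Nat) : PE :=
  lk (fun _ => PE.c 0)
    [.sub (.v 1) (.v 2), .add (.v 1) (.v 2), .sub (.c 1) (.mul (.c 2) (.v 3)),
      .sub (.v 6) (.v 7), .add (.v 6) (.v 7), .sub (.mul (.v 0) (.v 4)) (.v 5),
      .add (.v 4) (.mul (.v 0) (.v 5)), .c 1, .v 0] i

lemma ev_sf1 (k : ℝ) {v : R8} (h7 : v 7 = 1) (P : PE) :
    PE.ev (vK k v) (PE.sb sf1 P) = PE.ev (ck k v) P := by
  have hk : (1 + k ^ 2) ≠ 0 := by positivity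
  rw [PE.ev_sb]
  congr 1
  funext i
  by_cases hi : i < 9
  · interval_cases i <;>
      simp only [sf1, lk_zero, lk_succ, vK, ck, PE.ev_add, PE.ev_sub, PE.ev_mul, PE.ev_v, PE.ev_c,
        List.getD_cons_zero, List.getD_cons_succ, h7, Int.cast_one] <;> field_simp <;> ring
  · unfold sf1 ck
    rw [lk_ge _ _ _ (by simpa using not_lt.1 hi), PE.ev_c,
      List.getD_eq_default _ _ (by simpa using not_lt.1 hi)]
    simp

lemma ev_sf2 {T : ℝ} (h0 : -1 < T) (h1 : T ≤ 1) {v : R8} (h7 : v 7 = 1) (P : PE) :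
    PE.ev (vK (kf T) v) (PE.sb sf2 P) = PE.ev (ck (kf T) (sw8 T v)) P := by
  have hk : (1 + kf T ^ 2) ≠ 0 := by positivity
  have e1 := one_sub_T h0 h1
  have e2 := kp_eq h0 h1
  rw [PE.ev_sb]
  congr 1
  funext i
  by_cases hi : i < 9
  · have w0 : sw8 T v 0 = v 1 := rfl
    have w1 : sw8 T v 1 = v 0 := rfl
    have w2 : sw8 T v 2 = v 2 := rfl
    have w3 : sw8 T v 3 = v 4 := rfl
    have w4 : sw8 T v 4 = v 3 := rfl
    have w5 : sw8 T v 5 = kp T * v 6 - T * v 5 := rfl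
    have w6 : sw8 T v 6 = kp T * v 5 + T * v 6 := rfl
    have w7 : sw8 T v 7 = v 7 := rfl
    interval_cases i <;>
      simp only [sf2, lk_zero, lk_succ, vK, ck, PE.ev_add, PE.ev_sub, PE.ev_mul, PE.ev_v, PE.ev_c,
        List.getD_cons_zero, List.getD_cons_succ, w0, w1, w2, w3, w4, w5, w6, w7]
    · ring
    · ring
    · push_cast; ring
    · ring
    · ring
    · generalize kf T = κ at hk e1 e2
      field_simp
      linear_combination (-(v 6)) * e2 + v 5 * e1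
    · generalize kf T = κ at hk e1 e2
      field_simp
      linear_combination (-(v 5)) * e2 - v 6 * e1
    · rw [h7]; push_cast; ring
  · unfold sf2 ck
    rw [lk_ge _ _ _ (by simpa using not_lt.1 hi), PE.ev_c,
      List.getD_eq_default _ _ (by simpa using not_lt.1 hi)]
    simp

/-- the left side -/
def lhsF (L : List KT) : PE := PE.add (PE.sb sf1 (sumK L)) (PE.sb sf2 (sumK L))

theorem ev_lhsF {D : ℤ} (hD : D ≠ 0) (L : List KT) {T : ℝ} (h0 : -1 < T) (h1 : T < 1) {v : R8}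
    (h7 : v 7 = 1) :
    PE.ev (vK (kf T) v) (lhsF L) = -((1 - T ^ 2) * (1 + kf T ^ 2) * D
      * (Dsum (certK D L) T v + Dsum (certK D L) T (sw8 T v))) := by
  unfold lhsF
  rw [PE.ev_add, ev_sf1 _ h7, ev_sf2 h0 h1.le h7, ev_sumK hD L h0 h1, ev_sumK hD L h0 h1]
  ring

/-- the blocks with their factors -/
def mulF (L : List (Nat × Blk)) : List (PE × Blk) :=
  List.rec (motive := fun _ => List (PE × Blk)) []
    (fun x _ ih => (mK x.1, x.2) :: ih) L

lemma mulF_cons (x : Nat × Blk) (L : List (Nat × Blk)) :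
    mulF (x :: L) = (mK x.1, x.2) :: mulF L := rfl

lemma mem_mulF {L : List (Nat × Blk)} {B : PE × Blk} (h : B ∈ mulF L) :
    ∃ x ∈ L, B = (mK x.1, x.2) := by
  induction L with
  | nil => exact absurd h List.not_mem_nil
  | cons x L ih =>
    rw [mulF_cons] at h
    rcases List.mem_cons.1 h with h | h
    · exact ⟨x, List.mem_cons_self, h⟩
    · obtain ⟨y, hy, hB⟩ := ih h
      exact ⟨y, List.mem_cons_of_mem _ hy, hB⟩

/-- the right side of the identity -/
def rhsF (L : List (Nat × Blk)) : PE := rhsT tabF (mulF L)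

section

variable {E : Type*} [NormedAddCommGroup E] [InnerProductSpace ℝ E]

lemma isGramT_F (k : ℝ) {N w e : E} {v : R8} (hN : ‖N‖ = 1) (hw : ‖w‖ = 1) (he : ‖e‖ = 1)
    (v2 : v 2 = ⟪N, w⟫) (v3 : v 3 = ⟪N, e⟫) (v4 : v 4 = ⟪w, e⟫) :
    IsGramT tabF (vK k v) (vecK N w e) := by
  have e1 : ⟪N, N⟫ = 1 := by rw [real_inner_self_eq_norm_sq, hN]; norm_num
  have e2 : ⟪w, w⟫ = 1 := by rw [real_inner_self_eq_norm_sq, hw]; norm_num
  have e3 : ⟪e, e⟫ = 1 := by rw [real_inner_self_eq_norm_sq, he]; norm_num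
  have c1 : ⟪w, N⟫ = ⟪N, w⟫ := real_inner_comm _ _
  have c2 : ⟪e, N⟫ = ⟪N, e⟫ := real_inner_comm _ _
  have c3 : ⟪e, w⟫ = ⟪w, e⟫ := real_inner_comm _ _
  refine isGramT_of (n := 4) (by norm_num) rfl (by decide) rfl ?_ ?_
  · intro k hk
    unfold vecK
    rw [List.getD_eq_default _ _ (by simpa using hk)]
  · intro k hk l hl
    interval_cases k <;> interval_cases l <;>
      simp only [grT, tabF, lk_zero, lk_succ, PE.ev_c, PE.ev_v, PE.ev_sub, vecK, vK,
        List.getD_cons_zero, List.getD_cons_succ, inner_zero_left, inner_zero_right,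
        real_inner_smul_left, real_inner_smul_right, inner_add_left, inner_add_right,
        inner_sub_left, inner_sub_right, v2, v3, v4, e1, e2, e3, c1, c2, c3, Int.cast_zero,
        Int.cast_one, and_self, and_false, false_and, if_true, if_false] <;> norm_num <;> ring

/-- **The pointwise inequality of a Gaussian law for a unit vector** from the kernel check. -/
theorem hpos_of_chkF {D : ℤ} (hD : 0 < D) {L : List KT} {B : List (Nat × Blk)}
    {Ms : List ℕ}
    (hid : chk Ms (PE.sub (lhsF L) (rhsF B)) = true)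
    (hB : ∀ b ∈ B, tri b.2.G 0 = true ∧ QPos b.2.G) {T : ℝ} (hT0 : 0 < T) (hT1 : T < 1)
    {N w e : E} (he : ‖e‖ = 1) (hN : ‖N‖ = 1) (hw : ‖w‖ = 1) (P Q Z Xi : ℝ) :
    Dsum (certK D L) T ![P, Q, ⟪N, w⟫, ⟪N, e⟫, ⟪w, e⟫, Z, Xi, ⟪e, e⟫]
      + Dsum (certK D L) T (sw8 T ![P, Q, ⟪N, w⟫, ⟪N, e⟫, ⟪w, e⟫, Z, Xi, ⟪e, e⟫]) ≤ 0 := by
  set v : R8 := ![P, Q, ⟪N, w⟫, ⟪N, e⟫, ⟪w, e⟫, Z, Xi, ⟪e, e⟫] with hv
  have h7 : v 7 = 1 := by
    change ⟪e, e⟫ = 1
    rw [real_inner_self_eq_norm_sq, he]; norm_num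
  have h1 := ev_lhsF hD.ne' L (by linarith : -1 < T) hT1 h7
  have h2 : 0 ≤ PE.ev (vK (kf T) v) (lhsF L) := by
    rw [ev_eq_of_chk hid _ fun i hi => vK_ge _ _ (by omega)]
    refine sosT_nonneg _ (isGramT_F (kf T) hN hw he rfl rfl rfl) ?_ ?_
    · intro b hb
      obtain ⟨x, hx, rfl⟩ := mem_mulF hb
      exact hB x hx
    · intro b hb
      obtain ⟨x', hx', rfl⟩ := mem_mulF hb
      have g0 : vK (kf T) v 0 = kf T := rfl
      exact mK_nonneg (by rw [g0]; exact kf_nonneg T)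
        (by rw [g0]; exact kf_le_one hT0.le hT1.le) _
  rw [h1] at h2
  have hT : 0 < 1 - T ^ 2 := by nlinarith
  have hD' : (0 : ℝ) < D := by exact_mod_cast hD
  have h3 : 0 < (1 - T ^ 2) * (1 + kf T ^ 2) * D := by positivity
  nlinarith [mul_pos h3 h3]

end

end

end Vale.Agent.P224.R2.H389
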