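import Vale.Agent.P224.R2.H389.Sub1
import Vale.Agent.P224.POS.Psd

/-!
The pointwise inequality of a Gaussian law for a unit vector from kernel checks, block by block: every
block is expanded separately into a list of monomials with polynomials in `k`.
-/

namespace Vale.Agent.P224.R2.H389

open Vale.Agent.P224.UE Vale.Agent.P224.POS Vale.Agent.P224.UG Vale.Agent.P224.PU
open scoped RealInnerProductSpace

noncomputable section

/-- a polynomial in `k` -/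
def hk (l : List Int) : PE :=
  List.rec (motive := fun _ => PE) (PE.c 0)
    (fun a _ ih => PE.add (PE.c a) (PE.mul (PE.v 0) ih)) l

/-- packed polynomials -/
def uS (B len : Nat) (L : List (PE × Nat)) : List (PE × List Int) :=
  List.rec (motive := fun _ => List (PE × List Int)) []
    (fun x _ ih => List.cons (x.1, unpZ B len x.2) ih) L

/-- a sum of monomials times polynomials in `k` -/
def sS (L : List (PE × List Int)) : PE :=
  List.rec (motive := fun _ => PE) (PE.c 0) (fun x _ ih => PE.add (PE.mul x.1 (hk x.2)) ih) L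


section

variable {E : Type*} [NormedAddCommGroup E] [InnerProductSpace ℝ E]

/-- positivity of a block at given data -/
lemma blk_nonneg {k : ℝ} {N w e : E} (hN : ‖N‖ = 1) (hw : ‖w‖ = 1) (he : ‖e‖ = 1) {B : Blk}
    (ht : tri B.G 0 = true) (hq : QPos B.G) (P Q Z Xi : ℝ) :
    0 ≤ PE.ev (vK k ![P, Q, ⟪N, w⟫, ⟪N, e⟫, ⟪w, e⟫, Z, Xi, ⟪e, e⟫]) (blkT tabF B) :=
  blkT_nonneg B (isGramT_F k hN hw he rfl rfl rfl) ht hq

end

/-- the data of a certificate: factor, block, expansion -/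
abbrev BS := Nat × Blk × List (PE × List Int)

/-- the right side: the sum of the factors times the expansions -/
def rhsS (L : List BS) : PE :=
  List.rec (motive := fun _ => PE) (PE.c 0)
    (fun x _ ih => PE.add (PE.mul (mK x.1) (sS x.2.2)) ih) L

section

variable {E : Type*} [NormedAddCommGroup E] [InnerProductSpace ℝ E]

/-- a verified block -/
def okB (x : BS) : Prop :=
  tri x.2.1.G 0 = true ∧ QPos x.2.1.G ∧
    ∃ Ms : List ℕ, Ms.length = 4 ∧ chk Ms (PE.sub (blkT tabF x.2.1) (sS x.2.2)) = true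

lemma rhsS_nonneg {k : ℝ} (hk0 : 0 ≤ k) (hk1 : k ≤ 1) {N w e : E} (hN : ‖N‖ = 1) (hw : ‖w‖ = 1)
    (he : ‖e‖ = 1) (P Q Z Xi : ℝ) (L : List BS) (hL : ∀ x ∈ L, okB x) :
    0 ≤ PE.ev (vK k ![P, Q, ⟪N, w⟫, ⟪N, e⟫, ⟪w, e⟫, Z, Xi, ⟪e, e⟫]) (rhsS L) := by
  induction L with
  | nil =>
    have e1 : rhsS [] = PE.c 0 := rfl
    rw [e1, PE.ev_c, Int.cast_zero]
  | cons x L ih =>
    have e1 : rhsS (x :: L) = PE.add (PE.mul (mK x.1) (sS x.2.2)) (rhsS L) := rfl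
    rw [e1, PE.ev_add, PE.ev_mul]
    obtain ⟨ht, hq, Ms, h4, hc⟩ := hL x List.mem_cons_self
    have h1 := ev_eq_of_chk hc (vK k ![P, Q, ⟪N, w⟫, ⟪N, e⟫, ⟪w, e⟫, Z, Xi, ⟪e, e⟫])
      fun i hi => vK_ge _ _ (by omega)
    have h2 := blk_nonneg (k := k) hN hw he ht hq P Q Z Xi
    rw [h1] at h2
    refine add_nonneg (mul_nonneg ?_ h2) (ih fun y hy => hL y (List.mem_cons_of_mem _ hy))
    have g0 : vK k ![P, Q, ⟪N, w⟫, ⟪N, e⟫, ⟪w, e⟫, Z, Xi, ⟪e, e⟫] 0 = k := rfl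
    exact mK_nonneg (by rw [g0]; exact hk0) (by rw [g0]; exact hk1) _

/-- **The pointwise inequality of a Gaussian law for a unit vector** from the kernel checks. -/
theorem hpos_of_chkS {D : ℤ} (hD : 0 < D) {L : List KT} {B : List BS}
    {Ms : List ℕ} (h4 : Ms.length = 4)
    (hid : chk Ms (PE.sub (lhsF L) (rhsS B)) = true)
    (hB : ∀ b ∈ B, okB b) {T : ℝ} (hT0 : 0 < T) (hT1 : T < 1)
    {N w e : E} (he : ‖e‖ = 1) (hN : ‖N‖ = 1) (hw : ‖w‖ = 1) (P Q Z Xi : ℝ) :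
    Dsum (certK D L) T ![P, Q, ⟪N, w⟫, ⟪N, e⟫, ⟪w, e⟫, Z, Xi, ⟪e, e⟫]
      + Dsum (certK D L) T (sw8 T ![P, Q, ⟪N, w⟫, ⟪N, e⟫, ⟪w, e⟫, Z, Xi, ⟪e, e⟫]) ≤ 0 := by
  have h2 : 0 ≤ PE.ev (vK (kf T) ![P, Q, ⟪N, w⟫, ⟪N, e⟫, ⟪w, e⟫, Z, Xi, ⟪e, e⟫]) (lhsF L) := by
    rw [ev_eq_of_chk hid _ fun i hi => vK_ge _ _ (by omega)]
    exact rhsS_nonneg (kf_nonneg T) (kf_le_one hT0.le hT1.le) hN hw he P Q Z Xi B hB
  set v : R8 := ![P, Q, ⟪N, w⟫, ⟪N, e⟫, ⟪w, e⟫, Z, Xi, ⟪e, e⟫] with hv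
  have h7 : v 7 = 1 := by
    change ⟪e, e⟫ = 1
    rw [real_inner_self_eq_norm_sq, he]; norm_num
  have h1 := ev_lhsF hD.ne' L (by linarith : -1 < T) hT1 h7
  rw [h1] at h2
  have hT : 0 < 1 - T ^ 2 := by nlinarith
  have hD' : (0 : ℝ) < D := by exact_mod_cast hD
  have h3 : 0 < (1 - T ^ 2) * (1 + kf T ^ 2) * D := by positivity
  nlinarith [mul_pos h3 h3]

end

end

end Vale.Agent.P224.R2.H389
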